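import Vale.Agent.P256.Example

open MvPolynomial

namespace Vale.Agent.Results.P256.ProjectedLax

/-- `p` is homogeneous, `p(e) > 0`, and all complex roots of `t ↦ p(t e - x)` are real. -/
def IsHyperbolic {n : ℕ} (p : MvPolynomial (Fin n) ℝ) (e : Fin n → ℝ) : Prop :=
  (∃ d, p.IsHomogeneous d) ∧ 0 < eval e p ∧
    ∀ (x : Fin n → ℝ) (t : ℂ), aeval (fun i => t * (e i : ℂ) - (x i : ℂ)) p = 0 → t.im = 0

/-- the closed hyperbolicity cone `K(p,e)` -/
def hypCone {n : ℕ} (p : MvPolynomial (Fin n) ℝ) (e : Fin n → ℝ) : Set (Fin n → ℝ) :=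
  {x | ∀ t : ℝ, eval (fun i => t * e i - x i) p = 0 → 0 ≤ t}

/-- sets with a finite semidefinite lift -/
def IsShadow {n : ℕ} (K : Set (Fin n → ℝ)) : Prop :=
  ∃ (a N : ℕ) (A₀ : Matrix (Fin N) (Fin N) ℝ) (A : Fin n → Matrix (Fin N) (Fin N) ℝ)
    (B : Fin a → Matrix (Fin N) (Fin N) ℝ),
    A₀.IsSymm ∧ (∀ i, (A i).IsSymm) ∧ (∀ j, (B j).IsSymm) ∧
      K = {x | ∃ u : Fin a → ℝ, (A₀ + ∑ i, x i • A i + ∑ j, u j • B j).PosSemidef}

open Vale.Agent.P256 in
theorem result : ∃ (n : ℕ) (p : MvPolynomial (Fin n) ℝ) (e : Fin n → ℝ),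
    IsHyperbolic p e ∧ ¬ IsShadow (hypCone p e) := by
  obtain ⟨q, hq, hp, H⟩ := main
  let f := Fintype.equivFin ((Rw Sg × Rw Sg) ⊕ (Rw Sg × Rw Sg) ⊕ degLE Sg 4)
  have hev : ∀ z : Fin _ → ℝ, eval z (rename f (pv q tc X)) = pv q tc (z ∘ f) := fun z => by
    rw [eval_rename]; exact aeval_pv q tc _
  refine ⟨_, rename f (pv q tc X), ee ∘ f.symm, ⟨?_, ?_, fun x t h => ?_⟩, ?_⟩
  · obtain ⟨d, hd⟩ := pv_hom q tc
    exact ⟨d, hd.rename_isHomogeneous⟩
  · rw [hev, Function.comp_assoc, f.symm_comp_self, Function.comp_id, pv, bM_ee, sM_ee]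
    simp
  · rw [aeval_rename, aeval_pv] at h
    exact pv_roots hq hp (x ∘ f) t (by simpa [Function.comp_def] using h)
  · rintro ⟨a, N, A₀, A, B, h0, h1, h2, hK⟩
    refine H (Fin N) (Fin a → ℝ)
      { toFun := fun w => w.1 • A₀ + ∑ i, w.2.1 (f.symm i) • A i + ∑ j, w.2.2 j • B j
        map_add' := fun w w' => by
          simp only [Prod.fst_add, Prod.snd_add, Pi.add_apply, add_smul, Finset.sum_add_distrib]
          abel
        map_smul' := fun c w => by
          simp only [Prod.smul_fst, Prod.smul_snd, Pi.smul_apply, smul_eq_mul, mul_smul, smul_add,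
            Finset.smul_sum, RingHom.id_apply] } (fun w => ?_) fun x => ?_
    · simp only [LinearMap.coe_mk, AddHom.coe_mk, Matrix.transpose_add, Matrix.transpose_smul,
        Matrix.transpose_sum, h0.eq, (h1 _).eq, (h2 _).eq]
    · have := Set.ext_iff.1 hK (x ∘ f.symm)
      simp only [hypCone, hev, Set.mem_ofPred_eq, Function.comp_def, f.symm_apply_apply] at this
      simp only [LinearMap.coe_mk, AddHom.coe_mk, one_smul]
      exact this

end Vale.Agent.Results.P256.ProjectedLax
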